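import Vale.Agent.P088.R2.H230.W.Fl

/-!
# P088, stage 3, zone A: lower bounds of the gradient of the weight, vector part
-/

noncomputable section

namespace Vale.Agent.P088.R2.H912.A

open Vale.Agent.P088.R2.H230.W

variable {ι : Type*} [Fintype ι] {w a b : ι → ℝ} {N G L D c δ : ℝ}

theorem nn_smul_le (t : ℝ) (u : ι → ℝ) : nn (t • u) ≤ |t| * nn u := (nn_smul t u).le

/-- Slope below `1`. -/
theorem wx_far (e : w = (N + G) • a + (G * L + D) • b) (N0 : 0 ≤ N) (G0 : 0 ≤ G) (L0 : 0 ≤ L)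
    (L1 : L ≤ 1 - c) (hD : |D| ≤ δ * G) (ha : 1 - δ ≤ nn a) (hb : nn b ≤ 1 + δ) (δ0 : 0 ≤ δ)
    (hδ : 8 * δ ≤ c) : c / 2 * (N + G) ≤ nn w := by
  have h1 : nn ((N + G) • a) ≤ nn w + nn ((G * L + D) • b) := by
    have : (N + G) • a = w - (G * L + D) • b := by rw [e]; simp
    rw [this]
    exact nn_sub_le _ _
  rw [nn_smul, nn_smul, abs_of_nonneg (by positivity : 0 ≤ N + G)] at h1
  have h2 : |G * L + D| ≤ G * (1 - c + δ) := by
    refine (abs_add_le _ _).trans ?_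
    rw [abs_of_nonneg (by positivity : 0 ≤ G * L)]
    nlinarith
  have h3 : |G * L + D| * nn b ≤ G * (1 - c + δ) * (1 + δ) :=
    mul_le_mul h2 hb (nn_nonneg _) ((abs_nonneg _).trans h2)
  have h4 : (N + G) * (1 - δ) ≤ (N + G) * nn a := mul_le_mul_of_nonneg_left ha (by positivity)
  have h5 : (1 - c + δ) * (1 + δ) ≤ 1 - c + 3 * δ := by nlinarith
  have h6 : G * ((1 - c + δ) * (1 + δ)) ≤ G * (1 - c + 3 * δ) := mul_le_mul_of_nonneg_left h5 G0
  have h7 : 0 ≤ N * (1 - c + 3 * δ) := mul_nonneg N0 (by linarith)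
  nlinarith

/-- The stiff part is negligible. -/
theorem wx_deep (e : w = (N + G) • a + (G * L + D) • b) (N0 : 0 ≤ N) (G0 : 0 ≤ G)
    (h : |G * L + D| * nn b ≤ 1 / 4 * (N + G)) (ha : 1 / 2 ≤ nn a) : 1 / 4 * (N + G) ≤ nn w := by
  have h1 : nn ((N + G) • a) ≤ nn w + nn ((G * L + D) • b) := by
    have : (N + G) • a = w - (G * L + D) • b := by rw [e]; simp
    rw [this]
    exact nn_sub_le _ _
  rw [nn_smul, nn_smul, abs_of_nonneg (by positivity : 0 ≤ N + G)] at h1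
  have h4 : (N + G) * (1 / 2) ≤ (N + G) * nn a := mul_le_mul_of_nonneg_left ha (by positivity)
  linarith

/-- The stiff part dominates. -/
theorem wx_stiff (e : w = (N + G) • a + (G * L + D) • b) (N0 : 0 ≤ N) (G0 : 0 ≤ G)
    (L2 : 2 ≤ L) (hD : |D| ≤ 1 / 20 * G) (hG : N ≤ 1 / 20 * G) (ha : nn a ≤ 13 / 10)
    (hb : 19 / 20 ≤ nn b) : 1 / 4 * (N + G) ≤ nn w := by
  have h1 : nn ((G * L + D) • b) ≤ nn w + nn ((N + G) • a) := by
    have : (G * L + D) • b = w - (N + G) • a := by rw [e]; simp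
    rw [this]
    exact nn_sub_le _ _
  rw [nn_smul, nn_smul, abs_of_nonneg (by positivity : 0 ≤ N + G)] at h1
  have h2 : G * (39 / 20) ≤ |G * L + D| := by
    refine le_trans ?_ (le_abs_self _)
    have := neg_abs_le D
    nlinarith
  have h3 : G * (39 / 20) * (19 / 20) ≤ |G * L + D| * nn b :=
    mul_le_mul h2 hb (by norm_num) (abs_nonneg _)
  have h4 : (N + G) * nn a ≤ (N + G) * (13 / 10) := mul_le_mul_of_nonneg_left ha (by positivity)
  nlinarith

end Vale.Agent.P088.R2.H912.A
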